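import Mathlib

set_option autoImplicit false

/-!
P333, the greedy algorithm with isolated culprits: cyclic lists, permutations with two threads.
-/

namespace Vale.Agent.P333.H531.Iso

section cyc

variable {V : Type*}

/-- Sum along the path `a, l, z`. -/
def ps (p : V → V → ℕ) : V → List V → V → ℕ
  | a, [], z => p a z
  | a, b :: l, z => p a b + ps p b l z

theorem ps_append (p : V → V → ℕ) : ∀ (l₁ : List V) (a b : V) (l₂ : List V) (z : V),
    ps p a (l₁ ++ b :: l₂) z = ps p a l₁ b + ps p b l₂ z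
  | [], _, _, _, _ => rfl
  | c :: l₁, a, b, l₂, z => by
    rw [List.cons_append, ps, ps, ps_append p l₁ c b l₂ z, add_assoc]

theorem ps_last (p : V → V → ℕ) : ∀ (l : List V) (a z z' : V), ∃ x s, x ∈ a :: l ∧
    ps p a l z = s + p x z ∧ ps p a l z' = s + p x z'
  | [], a, z, z' => ⟨a, 0, by simp, by simp [ps], by simp [ps]⟩
  | b :: l, a, z, z' => by
    obtain ⟨x, s, h1, h2, h3⟩ := ps_last p l b z z'
    refine ⟨x, p a b + s, List.mem_cons_of_mem _ h1, ?_, ?_⟩
    · rw [ps, h2, add_assoc]
    · rw [ps, h3, add_assoc]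

theorem ps_zero (p : V → V → ℕ) (J : V → Prop) (h : ∀ x y, J x → J y → x ≠ y → p x y = 0) :
    ∀ (l : List V) (a z : V), (∀ x ∈ a :: l, J x) → J z → (a :: l).Nodup → z ∉ l →
      (l = [] → a ≠ z) → ps p a l z = 0
  | [], a, z, h1, h2, _, _, h5 => h a z (h1 a (by simp)) h2 (h5 rfl)
  | b :: l, a, z, h1, h2, h3, h4, _ => by
    have e1 : p a b = 0 := by
      refine h a b (h1 a (by simp)) (h1 b (by simp)) ?_
      rintro rfl
      exact (List.nodup_cons.1 h3).1 (by simp)
    have e2 := ps_zero p J h l b z (fun x hx => h1 x (List.mem_cons_of_mem _ hx)) h2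
      (List.nodup_cons.1 h3).2 (fun hz => h4 (List.mem_cons_of_mem _ hz))
      (fun _ hbz => h4 (by rw [hbz]; simp))
    rw [ps, e1, e2]

/-- The sum over a cyclic list with at least two closing elements. -/
theorem cyc_le (p : V → V → ℕ) (w : V → ℕ) (J : V → Prop)
    (hE : ∀ i j i' j', p i j' ≤ p i j → p i' j ≤ p i j → p i j' + p i' j ≤ p i j + p i' j')
    (h1 : ∀ x, ¬ J x → w x = p x x) (h2 : ∀ x, J x → w x = 0)
    (h3 : ∀ x y, (x = y ∧ J x) ∨ p x y ≤ max (w x) (w y)) :
    ∀ (n : ℕ) (a : V) (l : List V), l.length ≤ n → (a :: l).Nodup →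
      (∃ x y, x ∈ a :: l ∧ y ∈ a :: l ∧ x ≠ y ∧ J x ∧ J y) →
      ps p a l a ≤ ((a :: l).map w).sum := by
  classical
  have h0 : ∀ x y, J x → J y → x ≠ y → p x y = 0 := by
    intro x y hx hy hxy
    rcases h3 x y with h | h
    · exact absurd h.1 hxy
    · rw [h2 x hx, h2 y hy] at h
      simpa using h
  intro n
  induction n with
  | zero =>
    intro a l hl _ h
    have hl0 : l = [] := List.length_eq_zero_iff.1 (by omega)
    subst hl0
    obtain ⟨x, y, hx, hy, hxy, -, -⟩ := h
    simp only [List.mem_singleton] at hx hy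
    exact absurd (hx.trans hy.symm) hxy
  | succ n ih =>
    intro a l hl hnd hJ
    by_cases hall : ∀ x ∈ a :: l, J x
    · have hne : l ≠ [] := by
        rintro rfl
        obtain ⟨x, y, hx, hy, hxy, -, -⟩ := hJ
        simp only [List.mem_singleton] at hx hy
        exact absurd (hx.trans hy.symm) hxy
      rw [ps_zero p J h0 l a a hall (hall a (by simp)) hnd (List.nodup_cons.1 hnd).1
        (fun h => absurd h hne)]
      exact Nat.zero_le _
    · push Not at hall
      obtain ⟨c₀, hc₀, hcJ₀⟩ := hall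
      obtain ⟨c, hc, hmax⟩ := Finset.exists_max_image ((a :: l).toFinset.filter (fun x => ¬ J x)) w
        ⟨c₀, Finset.mem_filter.2 ⟨List.mem_toFinset.2 hc₀, hcJ₀⟩⟩
      rw [Finset.mem_filter, List.mem_toFinset] at hc
      have hmax' : ∀ x ∈ a :: l, w x ≤ w c := by
        intro x hx
        by_cases hxJ : J x
        · rw [h2 x hxJ]
          exact Nat.zero_le _
        · exact hmax x (Finset.mem_filter.2 ⟨List.mem_toFinset.2 hx, hxJ⟩)
      -- rotation
      obtain ⟨m, hm1, hm2⟩ : ∃ m, ps p a l a = ps p c m c ∧ (a :: l).Perm (c :: m) := by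
        rcases List.mem_cons.1 hc.1 with rfl | hcl
        · exact ⟨l, rfl, List.Perm.refl _⟩
        · obtain ⟨l₁, l₂, rfl⟩ := List.append_of_mem hcl
          refine ⟨l₂ ++ a :: l₁, ?_, ?_⟩
          · rw [ps_append, ps_append, add_comm]
          · have e : (a :: (l₁ ++ c :: l₂)) = (a :: l₁) ++ (c :: l₂) := rfl
            have e' : (c :: (l₂ ++ a :: l₁)) = (c :: l₂) ++ (a :: l₁) := rfl
            rw [e, e']
            exact List.perm_append_comm
      have hnd' : (c :: m).Nodup := hm2.nodup_iff.1 hnd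
      have hcm := (List.nodup_cons.1 hnd').1
      have hlen : m.length ≤ n + 1 := by
        have := hm2.length_eq
        simp only [List.length_cons] at this
        omega
      obtain ⟨x₀, y₀, hx₀, hy₀, hxy₀, hJx, hJy⟩ := hJ
      have hx₁ : x₀ ∈ m := by
        rcases List.mem_cons.1 (hm2.mem_iff.1 hx₀) with rfl | h
        · exact absurd hJx hc.2
        · exact h
      have hy₁ : y₀ ∈ m := by
        rcases List.mem_cons.1 (hm2.mem_iff.1 hy₀) with rfl | h
        · exact absurd hJy hc.2
        · exact h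
      rcases m with _ | ⟨y, m⟩
      · simp at hx₁
      obtain ⟨x, s, e1, e2, e3⟩ := ps_last p m y c y
      have hle : ∀ z ∈ y :: m, p c z ≤ p c c ∧ p z c ≤ p c c := by
        intro z hz
        have hzc : z ≠ c := by
          rintro rfl
          exact hcm hz
        have hwz := hmax' z (hm2.mem_iff.2 (List.mem_cons_of_mem _ hz))
        rw [← h1 c hc.2]
        constructor
        · rcases h3 c z with h | h
          · exact absurd h.1.symm hzc
          · exact h.trans (max_le le_rfl hwz)
        · rcases h3 z c with h | h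
          · exact absurd h.1 hzc
          · exact h.trans (max_le hwz le_rfl)
      have e4 := hE c c x y (hle y (by simp)).1 (hle x e1).2
      have e5 := ih y m (by simp only [List.length_cons] at hlen; omega) (List.nodup_cons.1 hnd').2
        ⟨x₀, y₀, hx₁, hy₁, hxy₀, hJx, hJy⟩
      have e6 : ((a :: l).map w).sum = w c + ((y :: m).map w).sum := by
        rw [(hm2.map w).sum_eq]
        simp
      rw [hm1, e6, h1 c hc.2, ps, e2]
      rw [e3] at e5
      omega

end cyc

section perm

open Equiv Equiv.Perm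

variable {V : Type*} [Fintype V] [DecidableEq V]

/-- Joining two orbits by a transposition. -/
theorem join (σ : Perm V) {d u v : V} (hu : σ.SameCycle d u) (hv : ¬ σ.SameCycle d v) :
    (∀ w, σ.SameCycle d w → (σ * swap u v).SameCycle v w) ∧
      (∀ w, σ.SameCycle d w → (σ * swap u v).SameCycle d w) ∧ (σ * swap u v).SameCycle d v := by
  have huv : u ≠ v := by
    rintro rfl
    exact hv hu
  have hstep : ∀ n : ℕ, (σ * swap u v).SameCycle v ((σ ^ (n + 1)) u) := by
    intro n
    induction n with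
    | zero =>
      have : (σ * swap u v) v = σ u := by simp
      rw [zero_add, pow_one, ← this]
      exact (sameCycle_apply_right.2 (SameCycle.refl _ _))
    | succ n ih =>
      by_cases h : (σ ^ (n + 1)) u = u
      · rw [pow_succ' σ (n + 1), Perm.mul_apply, h]
        have : (σ * swap u v) v = σ u := by simp
        rw [← this]
        exact (sameCycle_apply_right.2 (SameCycle.refl _ _))
      · have h2 : (σ ^ (n + 1)) u ≠ v := by
          intro h3
          apply hv
          refine hu.trans ?_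
          rw [← h3]
          exact sameCycle_pow_right.2 (SameCycle.refl _ _)
        have h3 : (σ * swap u v) ((σ ^ (n + 1)) u) = (σ ^ (n + 2)) u := by
          rw [Perm.mul_apply, swap_apply_of_ne_of_ne h h2, pow_succ' σ (n + 1), Perm.mul_apply]
        rw [← h3]
        exact sameCycle_apply_right.2 ih
  have hall : ∀ w, σ.SameCycle d w → (σ * swap u v).SameCycle v w := by
    intro w hw
    obtain ⟨i, hi, -, h⟩ := (hu.symm.trans hw).exists_pow_eq''
    obtain ⟨j, rfl⟩ : ∃ j, i = j + 1 := ⟨i - 1, by omega⟩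
    rw [← h]
    exact hstep j
  refine ⟨hall, fun w hw => ?_, ?_⟩
  · exact (hall d (SameCycle.refl _ _)).symm.trans (hall w hw)
  · exact (hall d (SameCycle.refl _ _)).symm

/-- Two threads. -/
def TT {m : ℕ} (N : Perm (Fin (m + 2))) : Prop :=
  ∀ v : Fin (m + 2), 2 ≤ (N v).val → v.val < (N v).val

theorem exists_tt (m : ℕ) : ∃ N : Perm (Fin (m + 2)), TT N := by
  refine ⟨Equiv.addRight (Fin.ofNat (m + 2) 2), ?_⟩
  intro v hv
  have hvlt := v.isLt
  have e : ((Equiv.addRight (Fin.ofNat (m + 2) 2)) v).val = (v.val + 2) % (m + 2) := by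
    simp [Fin.val_add, Fin.ofNat]
  rw [e] at hv ⊢
  rcases Nat.lt_or_ge (v.val + 2) (m + 2) with h | h
  · rw [Nat.mod_eq_of_lt h]
    omega
  · exfalso
    have : (v.val + 2) % (m + 2) = v.val + 2 - (m + 2) := by
      rw [Nat.mod_eq_sub_mod h, Nat.mod_eq_of_lt (by omega)]
    omega

theorem exists_alive {m : ℕ} {N : Perm (Fin (m + 2))} (hN : TT N) (v : Fin (m + 2))
    (hv : 1 ≤ v.val) : ∃ u : Fin (m + 2), u.val < v.val ∧ ((N u).val < 2 ∨ v.val < (N u).val) := by
  by_contra hcon
  push Not at hcon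
  have hc : (Finset.range v.val).card ≤ (Finset.Icc 2 v.val).card := by
    refine Finset.card_le_card_of_injOn
      (fun i => if h : i < m + 2 then (N ⟨i, h⟩).val else 0) ?_ ?_
    · intro i hi
      have hi' : i < v.val := Finset.mem_range.1 (Finset.mem_coe.1 hi)
      have hi2 : i < m + 2 := hi'.trans v.isLt
      have := hcon ⟨i, hi2⟩ hi'
      simp only [dif_pos hi2, Finset.coe_Icc, Set.mem_Icc]
      exact this
    · intro i hi j hj hij
      have hi' : i < v.val := Finset.mem_range.1 (Finset.mem_coe.1 hi)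
      have hj' : j < v.val := Finset.mem_range.1 (Finset.mem_coe.1 hj)
      have hi2 : i < m + 2 := hi'.trans v.isLt
      have hj2 : j < m + 2 := hj'.trans v.isLt
      simp only [dif_pos hi2, dif_pos hj2] at hij
      have := N.injective (Fin.ext hij)
      simpa using this
  rw [Finset.card_range, Nat.card_Icc] at hc
  omega

/-- There is a permutation with two threads which makes one cycle with a given one. -/
theorem exists_one_cycle {m : ℕ} (C : Perm (Fin (m + 2))) :
    ∃ N : Perm (Fin (m + 2)), TT N ∧ ∀ v, (C⁻¹ * N).SameCycle 0 v := by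
  classical
  obtain ⟨N₀, hN₀⟩ := exists_tt m
  obtain ⟨N, hN, hmax⟩ := Finset.exists_max_image
    (Finset.univ.filter (fun N : Perm (Fin (m + 2)) => TT N))
    (fun N => (Finset.univ.filter (fun v => (C⁻¹ * N).SameCycle 0 v)).card)
    ⟨N₀, Finset.mem_filter.2 ⟨Finset.mem_univ _, hN₀⟩⟩
  have hN' : TT N := (Finset.mem_filter.1 hN).2
  refine ⟨N, hN', ?_⟩
  by_contra hcon
  push Not at hcon
  -- the smallest exception
  obtain ⟨v, hv, hmin⟩ : ∃ v : Fin (m + 2), ¬ (C⁻¹ * N).SameCycle 0 v ∧
      ∀ u, u < v → (C⁻¹ * N).SameCycle 0 u := by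
    obtain ⟨v, hv, hmin⟩ := Finset.exists_min_image
      (Finset.univ.filter (fun v => ¬ (C⁻¹ * N).SameCycle 0 v)) id
      (by obtain ⟨v, hv⟩ := hcon; exact ⟨v, Finset.mem_filter.2 ⟨Finset.mem_univ _, hv⟩⟩)
    refine ⟨v, (Finset.mem_filter.1 hv).2, fun u hu => ?_⟩
    by_contra h
    exact absurd (hmin u (Finset.mem_filter.2 ⟨Finset.mem_univ _, h⟩)) (not_le.2 hu)
  have hv1 : 1 ≤ v.val := by
    rcases Nat.eq_zero_or_pos v.val with h | h
    · exfalso
      apply hv
      have : v = 0 := Fin.ext h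
      rw [this]
    · exact h
  obtain ⟨u, huv, hu⟩ := exists_alive hN' v hv1
  have hsame := hmin u huv
  have hj := join (C⁻¹ * N) hsame hv
  have hTT : TT (N * swap u v) := by
    intro z hz
    rw [Perm.mul_apply] at hz ⊢
    by_cases h1 : z = u
    · subst h1
      rw [swap_apply_left] at hz ⊢
      exact huv.trans (hN' v hz)
    · by_cases h2 : z = v
      · subst h2
        rw [swap_apply_right] at hz ⊢
        omega
      · rw [swap_apply_of_ne_of_ne h1 h2] at hz ⊢
        exact hN' z hz
  have h1 := hmax (N * swap u v) (Finset.mem_filter.2 ⟨Finset.mem_univ _, hTT⟩)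
  refine absurd h1 (not_le.2 (Finset.card_lt_card ?_))
  rw [Finset.ssubset_iff_of_subset]
  · refine ⟨v, ?_, ?_⟩
    · rw [Finset.mem_filter, ← mul_assoc]
      exact ⟨Finset.mem_univ _, hj.2.2⟩
    · rw [Finset.mem_filter]
      exact fun h => hv h.2
  · intro w hw
    rw [Finset.mem_filter] at hw ⊢
    rw [← mul_assoc]
    exact ⟨Finset.mem_univ _, hj.2.1 w hw.2⟩

/-- The sum over a single cycle. -/
theorem sum_le_of_one_cycle (σ : Perm V) (d : V) (hσ : ∀ v, σ.SameCycle d v)
    (p : V → V → ℕ) (w : V → ℕ) (J : V → Prop)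
    (hE : ∀ i j i' j', p i j' ≤ p i j → p i' j ≤ p i j → p i j' + p i' j ≤ p i j + p i' j')
    (h1 : ∀ x, ¬ J x → w x = p x x) (h2 : ∀ x, J x → w x = 0)
    (h3 : ∀ x y, (x = y ∧ J x) ∨ p x y ≤ max (w x) (w y))
    (hJ : ∃ x y, x ≠ y ∧ J x ∧ J y) :
    ∑ v, p v (σ v) ≤ ∑ v, w v := by
  classical
  -- the list of the iterates
  obtain ⟨n, hn0, hnd, hper⟩ : ∃ n : ℕ, 0 < n ∧ (∀ i j, i < n → j < n → (σ ^ i) d = (σ ^ j) d →
      i = j) ∧ (σ ^ n) d = d := by
    have hex : ∃ n, 0 < n ∧ (σ ^ n) d = d := ⟨orderOf σ, orderOf_pos σ, by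
      rw [pow_orderOf_eq_one]; rfl⟩
    refine ⟨Nat.find hex, (Nat.find_spec hex).1, ?_, (Nat.find_spec hex).2⟩
    have key : ∀ i j, i < Nat.find hex → j < i → (σ ^ i) d = (σ ^ j) d → False := by
      intro i j hi hji hij
      have : (σ ^ (i - j)) d = d := by
        have e : σ ^ i = σ ^ j * σ ^ (i - j) := by rw [← pow_add]; congr 1; omega
        rw [e, Perm.mul_apply] at hij
        exact (σ ^ j).injective hij
      exact Nat.find_min hex (show i - j < Nat.find hex by omega) ⟨by omega, this⟩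
    intro i j hi hj hij
    rcases Nat.lt_trichotomy i j with h | h | h
    · exact (key j i hj h hij.symm).elim
    · exact h
    · exact (key i j hi h hij).elim
  have hcov : ∀ v, ∃ i, i < n ∧ (σ ^ i) d = v := by
    intro v
    obtain ⟨i, -, -, h⟩ := (hσ v).exists_pow_eq''
    refine ⟨i % n, Nat.mod_lt _ hn0, ?_⟩
    rw [← h]
    have hk : ∀ k : ℕ, (σ ^ (n * k)) d = d := by
      intro k
      induction k with
      | zero => simp
      | succ k ih => rw [Nat.mul_succ, pow_add, Perm.mul_apply, hper, ih]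
    conv_rhs => rw [← Nat.mod_add_div i n, pow_add, Perm.mul_apply, hk]
  have hbij : ∀ f : V → ℕ, ∑ v, f v = ∑ i ∈ Finset.range n, f ((σ ^ i) d) := by
    intro f
    symm
    refine Finset.sum_bij (fun i _ => (σ ^ i) d) (fun _ _ => Finset.mem_univ _) ?_ ?_
      (fun _ _ => rfl)
    · intro i hi j hj hij
      exact hnd i j (Finset.mem_range.1 hi) (Finset.mem_range.1 hj) hij
    · intro v _
      obtain ⟨i, hi, h⟩ := hcov v
      exact ⟨i, Finset.mem_range.2 hi, h⟩
  -- the cyclic sum
  have hps : ∀ (k : ℕ) (a z : V), (σ ^ (k + 1)) a = z →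
      ps p a ((List.range k).map (fun i => (σ ^ (i + 1)) a)) z =
        ∑ i ∈ Finset.range (k + 1), p ((σ ^ i) a) ((σ ^ (i + 1)) a) := by
    intro k
    induction k with
    | zero =>
      intro a z hz
      simp only [zero_add, pow_one] at hz
      subst hz
      simp [ps]
    | succ k ih =>
      intro a z hz
      have e1 : (List.range (k + 1)).map (fun i => (σ ^ (i + 1)) a) =
          σ a :: (List.range k).map (fun i => (σ ^ (i + 1)) (σ a)) := by
        rw [List.range_succ_eq_map, List.map_cons, List.map_map]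
        congr 1
      rw [e1, ps, ih (σ a) z (by rw [← hz, ← Perm.mul_apply, ← pow_succ]),
        Finset.sum_range_succ' _ (k + 1), add_comm]
      congr 1
  obtain ⟨k, rfl⟩ : ∃ k, n = k + 1 := ⟨n - 1, by omega⟩
  have e1 := hps k d d hper
  have e2 : (d :: (List.range k).map (fun i => (σ ^ (i + 1)) d)) =
      (List.range (k + 1)).map (fun i => (σ ^ i) d) := by
    rw [List.range_succ_eq_map, List.map_cons, List.map_map]
    congr 1
  have e3 : (d :: (List.range k).map (fun i => (σ ^ (i + 1)) d)).Nodup := by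
    rw [e2]
    refine List.Nodup.map_on ?_ List.nodup_range
    intro i hi j hj hij
    exact hnd i j (List.mem_range.1 hi) (List.mem_range.1 hj) hij
  have e4 : ∀ v, v ∈ (d :: (List.range k).map (fun i => (σ ^ (i + 1)) d)) := by
    intro v
    obtain ⟨i, hi, h⟩ := hcov v
    rw [e2]
    exact List.mem_map.2 ⟨i, List.mem_range.2 hi, h⟩
  obtain ⟨x, y, hxy, hx, hy⟩ := hJ
  have e5 := cyc_le p w J hE h1 h2 h3 k d _ (by simp) e3 ⟨x, y, e4 x, e4 y, hxy, hx, hy⟩
  rw [e1, e2, List.map_map] at e5
  have e6 : ((List.range (k + 1)).map (w ∘ fun i => (σ ^ i) d)).sum =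
      ∑ i ∈ Finset.range (k + 1), w ((σ ^ i) d) := rfl
  rw [e6] at e5
  rw [hbij (fun v => p v (σ v)), hbij w]
  refine le_trans (le_of_eq ?_) e5
  refine Finset.sum_congr rfl fun i _ => ?_
  rw [pow_succ' σ i, Perm.mul_apply]

end perm

end Vale.Agent.P333.H531.Iso
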