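import Vale.Agent.P333.H705.GrG
import Vale.Agent.P333.H531.IsoA

set_option autoImplicit false

/-!
P333, the greedy algorithm with isolated culprits: two threads in a superstring, the closed blocks
of the positive links.
-/

namespace Vale.Agent.P333.H531.Iso

open Vale.Agent.P333 Vale.Agent.P333.U Vale.Agent.P333.H705.Gr
open Vale.Agent.P333.H120 hiding st
open Equiv Equiv.Perm

/-! ### Placement in a superstring -/

theorem ov_nil_left (y : List ℕ) : ov [] y = 0 := by
  obtain ⟨w, h1, -, h3⟩ := ov_wit [] y
  rw [List.suffix_nil] at h1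
  rw [← h3, h1]
  rfl

theorem ov_nil_right (y : List ℕ) : ov y [] = 0 := by
  obtain ⟨w, -, h1, h3⟩ := ov_wit y []
  rw [List.prefix_nil] at h1
  rw [← h3, h1]
  rfl

theorem place {x y u₁ v₁ u₂ v₂ T : List ℕ} (h1 : u₁ ++ x ++ v₁ = T) (h2 : u₂ ++ y ++ v₂ = T)
    (hu : u₁.length ≤ u₂.length) (hxy : ¬ x <:+: y) (hyx : ¬ y <:+: x) :
    u₁.length + x.length ≤ u₂.length + ov x y := by
  rcases Nat.lt_or_ge u₂.length (u₁.length + x.length) with hlt | hge
  swap
  · omega
  have e1 : T.drop u₂.length = x.drop (u₂.length - u₁.length) ++ v₁ := by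
    rw [← h1, List.append_assoc, List.drop_append, List.drop_eq_nil_of_le hu, List.nil_append,
      List.drop_append, show u₂.length - u₁.length - x.length = 0 by omega, List.drop_zero]
  have e2 : T.drop u₂.length = y ++ v₂ := by
    rw [← h2, List.append_assoc, List.drop_left]
  have e3 : x.drop (u₂.length - u₁.length) <+: T.drop u₂.length := by
    rw [e1]
    exact List.prefix_append _ _
  have e4 : y <+: T.drop u₂.length := by
    rw [e2]
    exact List.prefix_append _ _
  have e5 : x.drop (u₂.length - u₁.length) <:+ x := List.drop_suffix _ _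
  have e6 : (x.drop (u₂.length - u₁.length)).length = x.length - (u₂.length - u₁.length) :=
    List.length_drop
  rcases Nat.lt_or_ge (x.drop (u₂.length - u₁.length)).length y.length with h | h
  · have e7 : x.drop (u₂.length - u₁.length) <+: y :=
      List.prefix_of_prefix_length_le e3 e4 h.le
    have e8 : (x.drop (u₂.length - u₁.length)).length < x.length := by
      rcases Nat.eq_zero_or_pos (u₂.length - u₁.length) with h0 | h0
      · rw [h0, List.drop_zero] at e7
        exact absurd e7.isInfix hxy
      · omega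
    have := le_ov' e5 e7 e8 h
    omega
  · exact absurd ((List.prefix_of_prefix_length_le e4 e3 h).isInfix.trans e5.isInfix) hyx

/-- The strings of a list after two dummies. -/
def dm (Q : List (List ℕ)) (v : ℕ) : List ℕ := if v < 2 then [] else st Q (v - 2)

theorem sum_fin_two {m : ℕ} (f : ℕ → ℕ) :
    ∑ v : Fin (m + 2), f v.val = f 0 + f 1 + ∑ i ∈ Finset.range m, f (i + 2) := by
  rw [Fin.sum_univ_eq_sum_range (fun i => f i) (m + 2), Finset.sum_range_succ',
    Finset.sum_range_succ']
  change ∑ k ∈ Finset.range m, f (k + 2) + f 1 + f 0 = _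
  omega

/-- Two threads in a superstring. -/
theorem threads {Q : List (List ℕ)} (hQ : Sfree Q) {T : List ℕ} {L : List ℕ → ℕ}
    (hL : ∀ s ∈ Q, ∃ u v : List ℕ, u ++ s ++ v = T ∧ u.length = L s)
    (hs : Q.Pairwise (fun a b => L a ≤ L b)) {N : Perm (Fin (Q.length + 2))} (hN : TT N) :
    ∑ i ∈ Finset.range Q.length, (st Q i).length ≤
      2 * T.length + ∑ v : Fin (Q.length + 2), ov (dm Q v.val) (dm Q (N v).val) := by
  have key : ∀ v : Fin (Q.length + 2),
      (if v.val < 2 then 0 else L (dm Q v.val) + (dm Q v.val).length) ≤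
        (if (N v).val < 2 then T.length else L (dm Q (N v).val)) +
          ov (dm Q v.val) (dm Q (N v).val) := by
    intro v
    by_cases h1 : v.val < 2
    · rw [if_pos h1]
      exact Nat.zero_le _
    have hv : v.val - 2 < Q.length := by have := v.isLt; omega
    have ev : dm Q v.val = st Q (v.val - 2) := if_neg h1
    obtain ⟨u₁, v₁, h3, h4⟩ := hL _ (st_mem hv)
    rw [if_neg h1]
    by_cases h2 : (N v).val < 2
    · rw [if_pos h2, ev, ← h3, ← h4]
      simp only [List.length_append]
      omega
    have hz : (N v).val - 2 < Q.length := by have := (N v).isLt; omega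
    have ez : dm Q (N v).val = st Q ((N v).val - 2) := if_neg h2
    obtain ⟨u₂, v₂, h5, h6⟩ := hL _ (st_mem hz)
    have hlt : v.val - 2 < (N v).val - 2 := by
      have := hN v (by omega)
      omega
    rw [if_neg h2, ev, ez, ← h4, ← h6]
    refine place h3 h5 ?_ (st_not_infix hQ hv hz hlt.ne) (st_not_infix hQ hz hv hlt.ne')
    rw [h4, h6]
    have := List.pairwise_iff_getElem.1 hs _ _ hv hz hlt
    unfold st
    rw [List.getD_eq_getElem _ _ hv, List.getD_eq_getElem _ _ hz]
    exact this
  have h1 := Finset.sum_le_sum (fun v (_ : v ∈ Finset.univ) => key v)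
  rw [Finset.sum_add_distrib] at h1
  have h2 : ∑ v : Fin (Q.length + 2), (if (N v).val < 2 then T.length else L (dm Q (N v).val)) =
      ∑ v : Fin (Q.length + 2), (if v.val < 2 then T.length else L (dm Q v.val)) :=
    Equiv.sum_comp N (fun v => if v.val < 2 then T.length else L (dm Q v.val))
  rw [h2, sum_fin_two (fun v => if v < 2 then T.length else L (dm Q v)),
    sum_fin_two (fun v => if v < 2 then 0 else L (dm Q v) + (dm Q v).length)] at h1
  have e1 : ∀ i, (if i + 2 < 2 then 0 else L (dm Q (i + 2)) + (dm Q (i + 2)).length) =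
      L (st Q i) + (st Q i).length := by
    intro i
    have : dm Q (i + 2) = st Q i := by
      unfold dm
      rw [if_neg (by omega), Nat.add_sub_cancel]
    rw [if_neg (by omega), this]
  have e2 : ∀ i, (if i + 2 < 2 then T.length else L (dm Q (i + 2))) = L (st Q i) := by
    intro i
    have : dm Q (i + 2) = st Q i := by
      unfold dm
      rw [if_neg (by omega), Nat.add_sub_cancel]
    rw [if_neg (by omega), this]
  simp only [e1, e2] at h1
  rw [Finset.sum_add_distrib] at h1
  simp only [Nat.zero_lt_succ, if_true, zero_lt_two, one_lt_two] at h1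
  omega

/-! ### The closed blocks -/

/-- Every bad interval is a whole block of positive links. -/
def NB (P : List (List ℕ)) : Prop :=
  ∀ a b, Bad P.length (oi P) (lk P) a b → lk P a < 2 ∧ lk P (b + 1) < 2

open Classical in
/-- The first index of the block. -/
noncomputable def bst (P : List (List ℕ)) (i : ℕ) : ℕ :=
  Nat.find (⟨i, le_rfl, fun q h1 h2 => absurd h1 (not_lt.2 h2)⟩ :
    ∃ j, j ≤ i ∧ ∀ q, j < q → q ≤ i → 2 ≤ lk P q)

theorem bst_le (P : List (List ℕ)) (i : ℕ) : bst P i ≤ i := by
  classical
  unfold bst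
  exact (Nat.find_spec (⟨i, le_rfl, fun q h1 h2 => absurd h1 (not_lt.2 h2)⟩ :
    ∃ j, j ≤ i ∧ ∀ q, j < q → q ≤ i → 2 ≤ lk P q)).1

theorem bst_in (P : List (List ℕ)) (i q : ℕ) (h1 : bst P i < q) (h2 : q ≤ i) : 2 ≤ lk P q := by
  classical
  unfold bst at h1
  exact (Nat.find_spec (⟨i, le_rfl, fun q h1 h2 => absurd h1 (not_lt.2 h2)⟩ :
    ∃ j, j ≤ i ∧ ∀ q, j < q → q ≤ i → 2 ≤ lk P q)).2 q h1 h2

theorem bst_min (P : List (List ℕ)) (i j : ℕ) (h1 : j ≤ i)
    (h2 : ∀ q, j < q → q ≤ i → 2 ≤ lk P q) : bst P i ≤ j := by
  classical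
  unfold bst
  exact Nat.find_min' _ ⟨h1, h2⟩

/-- The successor in the closed block. -/
noncomputable def cs (P : List (List ℕ)) (i : ℕ) : ℕ :=
  if 2 ≤ lk P (i + 1) then i + 1 else bst P i

theorem lk_lt {P : List (List ℕ)} {i : ℕ} (h : 2 ≤ lk P i) : 0 < i ∧ i < P.length := by
  unfold lk at h
  split_ifs at h with h1
  · exact h1
  · omega

theorem cs_lt {P : List (List ℕ)} {i : ℕ} (hi : i < P.length) : cs P i < P.length := by
  unfold cs
  split_ifs with h
  · exact (lk_lt h).2
  · exact (bst_le P i).trans_lt hi

theorem cs_inj {P : List (List ℕ)} {i j : ℕ} (h : cs P i = cs P j) : i = j := by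
  have aux : ∀ i j, 2 ≤ lk P (i + 1) → ¬ 2 ≤ lk P (j + 1) → i + 1 = bst P j → False := by
    intro i j h1 _ h3
    have h4 := bst_le P j
    have h5 : bst P j ≤ i := bst_min P j i (by omega) (by
      intro q hq1 hq2
      rcases Nat.lt_or_ge (i + 1) q with h6 | h6
      · exact bst_in P j q (by omega) hq2
      · have : q = i + 1 := by omega
        rw [this]
        exact h1)
    omega
  have aux2 : ∀ i j, i < j → ¬ 2 ≤ lk P (i + 1) → bst P i = bst P j → False := by
    intro i j hij h1 h2
    apply h1
    have := bst_le P i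
    exact bst_in P j (i + 1) (by omega) (by omega)
  unfold cs at h
  split_ifs at h with h1 h2 h2
  · omega
  · exact (aux i j h1 h2 h).elim
  · exact (aux j i h2 h1 h.symm).elim
  · rcases Nat.lt_trichotomy i j with h3 | h3 | h3
    · exact (aux2 i j h3 h1 h).elim
    · exact h3
    · exact (aux2 j i h3 h2 h.symm).elim

/-- Dominance with the closed blocks. -/
theorem dom {P : List (List ℕ)} (h : GP P) (hB : NB P) {i j : ℕ} (hi : i < P.length)
    (hj : j < P.length) : (i = j ∧ ¬ 2 ≤ lk P (i + 1)) ∨
      oi P i (cs P j) ≤ max (lk P (i + 1) - 1) (lk P (j + 1) - 1) := by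
  have hG := pd_of_gp h
  have hc := cs_lt hj
  rcases Nat.eq_zero_or_pos (oi P i (cs P j)) with h0 | h0
  · right
    rw [h0]
    exact Nat.zero_le _
  by_cases h1 : oi P i (cs P j) < lk P (i + 1)
  · right
    exact le_trans (by omega) (le_max_left _ _)
  by_cases h2 : oi P i (cs P j) < lk P (cs P j)
  · right
    have h3 : 2 ≤ lk P (cs P j) := by omega
    by_cases h4 : 2 ≤ lk P (j + 1)
    · have e : cs P j = j + 1 := if_pos h4
      rw [e] at h2 ⊢
      exact le_trans (by omega) (le_max_right _ _)
    · exfalso
      have e : cs P j = bst P j := if_neg h4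
      rw [e] at h3
      have h5 := (lk_lt h3).1
      have h6 := bst_min P j (bst P j - 1) (by have := bst_le P j; omega) (by
        intro q hq1 hq2
        rcases Nat.lt_or_ge (bst P j) q with h6 | h6
        · exact bst_in P j q h6 hq2
        · have : q = bst P j := by omega
          rw [this]
          exact h3)
      omega
  rcases hG.gp i (cs P j) hi hc with h3 | h3 | ⟨h3, h4⟩
  · exact absurd h3 h1
  · exact absurd h3 h2
  left
  have hbad : Bad P.length (oi P) (lk P) (cs P j) i := ⟨h3, hi, by omega, by omega, h4⟩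
  obtain ⟨h5, h6⟩ := hB _ _ hbad
  have h7 : ¬ 2 ≤ lk P (i + 1) := by omega
  refine ⟨?_, h7⟩
  have h8 : bst P i ≤ cs P j := bst_min P i _ h3 (fun q hq1 hq2 => by
    have := h4 q hq1 hq2
    omega)
  have h9 : cs P i = cs P j := by
    have e : cs P i = bst P i := if_neg h7
    rw [e]
    rcases Nat.lt_or_ge (bst P i) (cs P j) with h10 | h10
    · have := bst_in P i _ h10 h3
      omega
    · omega
  exact cs_inj h9

/-- The merge of a dominated ordering with isolated culprits is at most twice as long as a
superstring. -/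
theorem two_bound {P : List (List ℕ)} (hP : Sfree P) (hne : P ≠ []) (h : GP P) (hB : NB P)
    {T : List ℕ} (hT : IsSuperstring P T) : (mergeL P).length ≤ 2 * T.length := by
  classical
  -- occurrences
  have hocc : ∀ s, ∃ n : ℕ, s ∈ P → ∃ u v : List ℕ, u ++ s ++ v = T ∧ u.length = n := by
    intro s
    by_cases hs : s ∈ P
    · obtain ⟨u, v, huv⟩ := hT s hs
      exact ⟨u.length, fun _ => ⟨u, v, huv, rfl⟩⟩
    · exact ⟨0, fun h => absurd h hs⟩
  choose L hL using hocc
  obtain ⟨Q, hQP, hQs⟩ : ∃ Q : List (List ℕ), Q.Perm P ∧ Q.Pairwise (fun a b => L a ≤ L b) := by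
    refine ⟨P.insertionSort (fun a b => L a ≤ L b), List.perm_insertionSort _ _, ?_⟩
    have : IsTrans (List ℕ) (fun a b => L a ≤ L b) := ⟨fun a b c h1 h2 => h1.trans h2⟩
    have : Std.Total (fun a b : List ℕ => L a ≤ L b) := ⟨fun a b => Nat.le_total _ _⟩
    exact List.pairwise_insertionSort _ _
  have hQ : Sfree Q := sfree_perm hP hQP.symm
  have hlen : Q.length = P.length := hQP.length_eq
  obtain ⟨m, hm⟩ : ∃ m, m = Q.length := ⟨_, rfl⟩
  -- the greedy coordinates
  let gf : Fin (Q.length + 2) → Fin (Q.length + 2) := fun v =>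
    if h : v.val < 2 then v else ⟨P.idxOf (st Q (v.val - 2)) + 2, by
      have h1 : v.val - 2 < Q.length := by have := v.isLt; omega
      have h2 : st Q (v.val - 2) ∈ P := hQP.mem_iff.1 (st_mem h1)
      have := List.idxOf_lt_length_iff.2 h2
      omega⟩
  have gf0 : ∀ v : Fin (Q.length + 2), v.val < 2 → gf v = v := fun v hv => dif_pos hv
  have gf1 : ∀ v : Fin (Q.length + 2), ¬ v.val < 2 →
      (gf v).val = P.idxOf (st Q (v.val - 2)) + 2 := by
    intro v hv
    simp only [gf, dif_neg hv]
  have gfdm : ∀ v, dm P (gf v).val = dm Q v.val := by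
    intro v
    by_cases hv : v.val < 2
    · rw [gf0 v hv]
      unfold dm
      rw [if_pos hv, if_pos hv]
    · have h1 : v.val - 2 < Q.length := by have := v.isLt; omega
      rw [gf1 v hv]
      unfold dm
      rw [if_neg (by omega), if_neg hv, Nat.add_sub_cancel]
      exact idx_st (hQP.mem_iff.1 (st_mem h1))
  have gfinj : Function.Injective gf := by
    intro v w hvw
    by_cases hv : v.val < 2
    · by_cases hw : w.val < 2
      · rwa [gf0 v hv, gf0 w hw] at hvw
      · exfalso
        have := congrArg Fin.val hvw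
        rw [gf0 v hv, gf1 w hw] at this
        omega
    · by_cases hw : w.val < 2
      · exfalso
        have := congrArg Fin.val hvw
        rw [gf0 w hw, gf1 v hv] at this
        omega
      · have h1 : v.val - 2 < Q.length := by have := v.isLt; omega
        have h2 : w.val - 2 < Q.length := by have := w.isLt; omega
        have h3 : st Q (v.val - 2) = st Q (w.val - 2) := by
          have e1 := gfdm v
          have e2 := gfdm w
          unfold dm at e1 e2
          rw [if_neg hv] at e1
          rw [if_neg hw] at e2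
          rw [← e1, ← e2, hvw]
        have h4 : v.val - 2 = w.val - 2 := by
          rw [← st_idx hQ h1, h3, st_idx hQ h2]
        apply Fin.ext
        omega
  let g : Perm (Fin (Q.length + 2)) :=
    Equiv.ofBijective gf (Finite.injective_iff_bijective.1 gfinj)
  have hg : ∀ v, g v = gf v := fun _ => rfl
  -- the closure
  let cf : Fin (Q.length + 2) → Fin (Q.length + 2) := fun v =>
    if h : v.val < 2 then v else ⟨cs P (v.val - 2) + 2, by
      have h1 : v.val - 2 < P.length := by have := v.isLt; omega
      have := cs_lt h1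
      omega⟩
  have cf0 : ∀ v : Fin (Q.length + 2), v.val < 2 → cf v = v := fun v hv => dif_pos hv
  have cf1 : ∀ v : Fin (Q.length + 2), ¬ v.val < 2 → (cf v).val = cs P (v.val - 2) + 2 := by
    intro v hv
    simp only [cf, dif_neg hv]
  have cfinj : Function.Injective cf := by
    intro v w hvw
    by_cases hv : v.val < 2
    · by_cases hw : w.val < 2
      · rwa [cf0 v hv, cf0 w hw] at hvw
      · exfalso
        have := congrArg Fin.val hvw
        rw [cf0 v hv, cf1 w hw] at this
        omega
    · by_cases hw : w.val < 2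
      · exfalso
        have := congrArg Fin.val hvw
        rw [cf0 w hw, cf1 v hv] at this
        omega
      · have e := congrArg Fin.val hvw
        rw [cf1 v hv, cf1 w hw] at e
        have := cs_inj (P := P) (i := v.val - 2) (j := w.val - 2) (by omega)
        apply Fin.ext
        omega
  let c : Perm (Fin (Q.length + 2)) :=
    Equiv.ofBijective cf (Finite.injective_iff_bijective.1 cfinj)
  have hc : ∀ v, c v = cf v := fun _ => rfl
  obtain ⟨N, hN, hcyc⟩ := exists_one_cycle (g⁻¹ * c * g)
  have hthr := threads hQ (T := T) (L := L) (fun s hs => hL s (hQP.mem_iff.1 hs)) hQs hN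
  set C : Perm (Fin (Q.length + 2)) := g⁻¹ * c * g with hC
  have hgC : ∀ v, g (C v) = c (g v) := by
    intro v
    simp [hC]
  have hdC : ∀ v, dm Q (C v).val = dm P (cf (gf v)).val := by
    intro v
    rw [← gfdm, ← hg, hgC, hc, hg]
  have hmain := sum_le_of_one_cycle (C⁻¹ * N) 0 hcyc
    (fun v v' => ov (dm P (gf v).val) (dm P (cf (gf v')).val))
    (fun v => if (gf v).val < 2 then 0 else lk P ((gf v).val - 2 + 1) - 1)
    (fun v => (gf v).val < 2 ∨ ¬ 2 ≤ lk P ((gf v).val - 2 + 1))
    (fun i j i' j' => exch_ov _ _ _ _)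
    (by
      intro v hv
      push Not at hv
      obtain ⟨h1, h2⟩ := hv
      have e1 : dm P (gf v).val = st P ((gf v).val - 2) := if_neg (by omega)
      have e2 : (cf (gf v)).val = (gf v).val - 2 + 1 + 2 := by
        rw [cf1 _ (by omega)]
        unfold cs
        rw [if_pos h2]
      have e3 : dm P (cf (gf v)).val = st P ((gf v).val - 2 + 1) := by
        unfold dm
        rw [if_neg (by omega), e2, Nat.add_sub_cancel]
      have e4 := (pd_of_gp h).gi ((gf v).val - 2 + 1) (by omega) (lk_lt h2).2
      rw [Nat.add_sub_cancel] at e4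
      simp only [if_neg (show ¬ (gf v).val < 2 by omega), e1, e3, e4]
      rfl)
    (by
      intro v hv
      split_ifs with h1
      · rfl
      · rcases hv with h2 | h2
        · exact absurd h2 h1
        · omega)
    (by
      intro v v'
      by_cases h1 : (gf v).val < 2
      · right
        have : dm P (gf v).val = [] := if_pos h1
        rw [this, ov_nil_left]
        exact Nat.zero_le _
      by_cases h2 : (gf v').val < 2
      · right
        have : dm P (cf (gf v')).val = [] := by
          rw [cf0 _ h2]
          exact if_pos h2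
        rw [this, ov_nil_right]
        exact Nat.zero_le _
      have b1 : (gf v).val - 2 < P.length := by have := (gf v).isLt; omega
      have b2 : (gf v').val - 2 < P.length := by have := (gf v').isLt; omega
      have e1 : dm P (gf v).val = st P ((gf v).val - 2) := if_neg h1
      have e2 : dm P (cf (gf v')).val = st P (cs P ((gf v').val - 2)) := by
        unfold dm
        rw [cf1 _ h2, if_neg (by omega), Nat.add_sub_cancel]
      rw [e1, e2, if_neg h1, if_neg h2]
      rcases dom h hB b1 b2 with ⟨h3, h4⟩ | h3
      · left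
        refine ⟨gfinj (Fin.ext (by omega)), Or.inr h4⟩
      · right
        exact h3)
    (by
      refine ⟨⟨0, by omega⟩, ⟨1, by omega⟩, by simp, Or.inl ?_, Or.inl ?_⟩
      · rw [gf0 _ (by simp)]
        simp
      · rw [gf0 _ (by simp)]
        simp)
  have e1 : ∀ v, ov (dm P (gf v).val) (dm P (cf (gf ((C⁻¹ * N) v))).val) =
      ov (dm Q v.val) (dm Q (N v).val) := by
    intro v
    rw [← hdC, gfdm]
    have : C ((C⁻¹ * N) v) = N v := by simp
    rw [this]
  simp only [e1] at hmain
  have e2 : ∑ v : Fin (Q.length + 2), (if (gf v).val < 2 then 0 else lk P ((gf v).val - 2 + 1) - 1) =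
      ∑ i ∈ Finset.range P.length, (lk P (i + 1) - 1) := by
    have e3 := Equiv.sum_comp g (fun v : Fin (Q.length + 2) =>
      (if v.val < 2 then 0 else lk P (v.val - 2 + 1) - 1))
    rw [show (∑ v : Fin (Q.length + 2),
      (if (gf v).val < 2 then 0 else lk P ((gf v).val - 2 + 1) - 1)) =
      ∑ v : Fin (Q.length + 2), (if (g v).val < 2 then 0 else lk P ((g v).val - 2 + 1) - 1)
      from rfl, e3, sum_fin_two (fun v => if v < 2 then 0 else lk P (v - 2 + 1) - 1), hlen]
    simp
  rw [e2] at hmain
  have e4 : ∑ i ∈ Finset.range Q.length, (st Q i).length =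
      ∑ i ∈ Finset.range P.length, (st P i).length := by
    have aux : ∀ R : List (List ℕ), ∑ i ∈ Finset.range R.length, (st R i).length =
        (R.map List.length).sum := by
      intro R
      induction R with
      | nil => simp
      | cons a R ih =>
        rw [List.length_cons, Finset.sum_range_succ', List.map_cons, List.sum_cons, ← ih, add_comm]
        rfl
    rw [aux, aux, (hQP.map _).sum_eq]
  have e5 : (mergeL P).length + ∑ i ∈ Finset.range P.length, (lk P (i + 1) - 1) =
      ∑ i ∈ Finset.range P.length, (st P i).length := by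
    obtain ⟨x, r, rfl⟩ := List.exists_cons_of_ne_nil hne
    exact len_path x r
  omega

end Vale.Agent.P333.H531.Iso
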