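import Vale.Agent.P333.H705.GrDefs

set_option autoImplicit false

/-!
P333: runs of the greedy algorithm with isolated culprits.
-/

namespace Vale.Agent.P333.Greedy

/-- No string shorter than `x` and longer than `k` is both a suffix and a prefix of `x`. -/
def SelfOverlapLE (x : List ℕ) (k : ℕ) : Prop :=
  ∀ w : List ℕ, w <:+ x → w <+: x → w.length < x.length → w.length ≤ k

/-- A step of the greedy algorithm: two distinct strings `x`, `y` of the family with a longest
overlap, of length `k`, among all ordered pairs of distinct strings of the family are replaced by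
their merge. Moreover `k = 0`, or neither `x` nor `y` overlaps itself by more than `k`. -/
def StepI (F F' : List (List ℕ)) : Prop :=
  ∃ (x y : List ℕ) (R : List (List ℕ)) (k : ℕ), F.Perm (x :: y :: R) ∧ IsOverlap x y k ∧
    (∀ (z w : List ℕ) (R' : List (List ℕ)) (l : ℕ), F.Perm (z :: w :: R') →
      IsOverlap z w l → l ≤ k) ∧
    (k = 0 ∨ (SelfOverlapLE x k ∧ SelfOverlapLE y k)) ∧
    F' = (x.take (x.length - k) ++ y) :: R

/-- `t` is the output of a run of the greedy algorithm for the family `S` of which every step is of
this kind. -/
def OutputI (S : List (List ℕ)) (t : List ℕ) : Prop :=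
  ∃ F, Reduced S F ∧ Relation.ReflTransGen StepI F [t]

end Vale.Agent.P333.Greedy
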