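import Vale.Agent.P333.H531.IsoB
import Vale.Agent.P333.H531.IsoDefs

set_option autoImplicit false

/-!
P333, the greedy algorithm with isolated culprits: the runs.
-/

namespace Vale.Agent.P333.H531.Iso

open Vale.Agent.P333 Vale.Agent.P333.U Vale.Agent.P333.H705.Gr Vale.Agent.P333.Greedy
open Vale.Agent.P333.H120 hiding st

/-- A step with the condition on the self overlaps. -/
def GStepI (F F' : List (List ℕ)) : Prop :=
  ∃ x y R, F.Perm (x :: y :: R) ∧ (∀ z w R', F.Perm (z :: w :: R') → ov z w ≤ ov x y) ∧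
    (ov x y = 0 ∨ (ov x x ≤ ov x y ∧ ov y y ≤ ov x y)) ∧ F' = mergeL [x, y] :: R

theorem lk_app_left {p q : List (List ℕ)} {k : ℕ} (h : k < p.length) :
    lk (p ++ q) k = lk p k := by
  unfold lk
  by_cases h0 : 0 < k
  · rw [if_pos ⟨h0, by rw [List.length_append]; omega⟩, if_pos ⟨h0, h⟩,
      List.getD_append _ _ _ _ (by omega), List.getD_append _ _ _ _ (by omega)]
  · rw [if_neg (by omega), if_neg (by omega)]

theorem lk_app_right {p q : List (List ℕ)} {k : ℕ} (h : 0 < k) :
    lk (p ++ q) (p.length + k) = lk q k := by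
  unfold lk
  by_cases h0 : k < q.length
  · have e : p.length + k - 1 - p.length = k - 1 := by omega
    rw [if_pos ⟨by omega, by rw [List.length_append]; omega⟩, if_pos ⟨h, h0⟩,
      List.getD_append_right _ _ _ _ (by omega), List.getD_append_right _ _ _ _ (by omega), e,
      Nat.add_sub_cancel_left]
  · rw [if_neg (by rw [List.length_append]; omega), if_neg (by omega)]

theorem lk_zero (p : List (List ℕ)) : lk p 0 = 0 := by
  unfold lk
  rw [if_neg (by omega)]

theorem lk_len (p : List (List ℕ)) {k : ℕ} (h : p.length ≤ k) : lk p k = 0 := by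
  unfold lk
  rw [if_neg (by omega)]

theorem st_app_left {p q : List (List ℕ)} {k : ℕ} (h : k < p.length) :
    st (p ++ q) k = st p k := by
  unfold st
  exact List.getD_append _ _ _ _ h

theorem st_app_right (p q : List (List ℕ)) (k : ℕ) :
    st (p ++ q) (p.length + k) = st q k := by
  unfold st
  rw [List.getD_append_right _ _ _ _ (by omega), Nat.add_sub_cancel_left]

/-- The self overlap of the merge is at least the overlap of the last and the first string. -/
theorem self_ge {p : List (List ℕ)} (hp : p ≠ []) (hne : mergeL p ≠ []) :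
    ov (la p) (fi p) ≤ ov (mergeL p) (mergeL p) := by
  obtain ⟨w, h1, h2, h3⟩ := ov_wit (la p) (fi p)
  have e1 : la p <:+ mergeL p := by
    rw [la_eq]
    exact getLastD_suffix_mergeL p
  have e2 : fi p <+: mergeL p := by
    obtain ⟨x, r, rfl⟩ := List.exists_cons_of_ne_nil hp
    rw [fi_eq]
    exact head_prefix_mergeL x r
  have h4 := List.length_pos_of_ne_nil hne
  have h5 : w.length < (mergeL p).length := by
    rcases Nat.eq_zero_or_pos w.length with h | h
    · omega
    · have h6 : fi p ≠ [] := by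
        intro h0
        rw [h0, List.prefix_nil] at h2
        rw [h2] at h
        simp at h
      have h7 := ov_lt_right (la p) h6
      have h8 := e2.length_le
      omega
  rw [← h3]
  exact le_ov' (h1.trans e1) (h2.trans e2) h5 h5

theorem NB.append {p q : List (List ℕ)} {k : ℕ} (hp : p ≠ []) (hq : q ≠ []) (h1 : NB p)
    (h2 : NB q) (hk : ov (la p) (fi q) = k) (h3 : ∀ i, 0 < i → i < p.length → k < lk p i)
    (h4 : ∀ i, 0 < i → i < q.length → k < lk q i)
    (h5 : k = 0 ∨ (ov (la p) (fi p) ≤ k ∧ ov (la q) (fi q) ≤ k)) : NB (p ++ q) := by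
  have hpl := List.length_pos_of_ne_nil hp
  have hql := List.length_pos_of_ne_nil hq
  have hmid := lk_mid hp hq
  rw [hk] at hmid
  have hlen : (p ++ q).length = p.length + q.length := List.length_append
  intro a b ⟨c1, c2, c3, c4, c5⟩
  rcases Nat.lt_or_ge b p.length with hb | hb
  · -- inside `p`
    have ha : a < p.length := lt_of_le_of_lt c1 hb
    have eo : oi (p ++ q) b a = oi p b a := by
      unfold oi
      rw [st_app_left hb, st_app_left ha]
    rw [eo] at c3 c4 c5
    rw [lk_app_left ha] at c3 ⊢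
    have c5' : ∀ i, a < i → i ≤ b → oi p b a < lk p i := by
      intro i hi1 hi2
      have := c5 i hi1 hi2
      rwa [lk_app_left (by omega)] at this
    rcases Nat.lt_or_ge (b + 1) p.length with hb1 | hb1
    · rw [lk_app_left hb1] at c4 ⊢
      exact h1 a b ⟨c1, hb, c3, c4, c5'⟩
    · have hb2 : b + 1 = p.length := by omega
      rw [hb2, hmid] at c4 ⊢
      have h6 := h1 a b ⟨c1, hb, c3, by rw [hb2, lk_len p le_rfl]; exact Nat.zero_le _, c5'⟩
      refine ⟨h6.1, ?_⟩
      by_contra hcon
      have hk1 : 1 ≤ k := by omega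
      rcases h5 with h5 | ⟨h5, -⟩
      · omega
      · rcases Nat.eq_zero_or_pos a with h0 | h0
        · subst h0
          have e : oi p b 0 = ov (la p) (fi p) := by
            unfold oi la fi st
            rw [show p.length - 1 = b by omega]
          rw [e] at c4
          omega
        · have := h3 a h0 ha
          have := h6.1
          omega
  · rcases Nat.lt_or_ge a p.length with ha | ha
    · -- across
      have h6 := c5 p.length ha hb
      rw [hmid] at h6
      constructor
      · rcases Nat.eq_zero_or_pos a with h0 | h0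
        · rw [h0, lk_zero]
          omega
        · exfalso
          rw [lk_app_left ha] at c3
          have := h3 a h0 ha
          omega
      · rcases Nat.lt_or_ge (b + 1) (p ++ q).length with h7 | h7
        · exfalso
          obtain ⟨d, hd⟩ := Nat.exists_eq_add_of_le hb
          have e4 : lk (p ++ q) (b + 1) = lk q (d + 1) := by
            rw [hd, show p.length + d + 1 = p.length + (d + 1) by omega,
              lk_app_right (Nat.succ_pos d)]
          have e5 := h4 (d + 1) (Nat.succ_pos d) (by omega)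
          omega
        · rw [lk_len _ h7]
          omega
    · -- inside `q`
      obtain ⟨a', rfl⟩ := Nat.exists_eq_add_of_le ha
      obtain ⟨b', rfl⟩ := Nat.exists_eq_add_of_le hb
      have eo : oi (p ++ q) (p.length + b') (p.length + a') = oi q b' a' := by
        unfold oi
        rw [st_app_right, st_app_right]
      have eb : p.length + b' + 1 = p.length + (b' + 1) := by omega
      rw [eo] at c3 c4 c5
      rw [eb, lk_app_right (Nat.succ_pos b')] at c4 ⊢
      have c5' : ∀ i, a' < i → i ≤ b' → oi q b' a' < lk q i := by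
        intro i hi1 hi2
        have := c5 (p.length + i) (by omega) (by omega)
        rwa [lk_app_right (by omega)] at this
      rcases Nat.eq_zero_or_pos a' with h0 | h0
      · subst h0
        rw [Nat.add_zero, hmid] at c3 ⊢
        have h6 := h2 0 b' ⟨by omega, by omega, by rw [lk_zero]; exact Nat.zero_le _, c4, c5'⟩
        refine ⟨?_, h6.2⟩
        by_contra hcon
        have hk1 : 1 ≤ k := by omega
        rcases h5 with h5 | ⟨-, h5⟩
        · omega
        · rcases Nat.lt_or_ge (b' + 1) q.length with h7 | h7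
          · have := h4 (b' + 1) (Nat.succ_pos b') h7
            have := h6.2
            omega
          · have e : oi q b' 0 = ov (la q) (fi q) := by
              unfold oi la fi st
              rw [show q.length - 1 = b' by omega]
            rw [e] at c3
            omega
      · rw [lk_app_right h0] at c3 ⊢
        exact h2 a' b' ⟨by omega, by omega, c3, c4, c5'⟩

theorem inv_stepI {B : ℕ} {𝓟 : List (List (List ℕ))} {F' : List (List ℕ)} (h : Inv B 𝓟)
    (hn : ∀ p ∈ 𝓟, NB p) (hs : GStepI (𝓟.map mergeL) F') :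
    ∃ B' 𝓠, Inv B' 𝓠 ∧ (∀ p ∈ 𝓠, NB p) ∧ 𝓠.map mergeL = F' ∧ 𝓠.flatten.Perm 𝓟.flatten := by
  obtain ⟨x, y, R, h1, h2, h0, rfl⟩ := hs
  obtain ⟨l', h3, h4⟩ := exists_map_of_perm h1.symm mergeL 𝓟 rfl
  rcases l' with _ | ⟨p, _ | ⟨q, 𝓡⟩⟩
  · simp at h4
  · simp at h4
  · rw [List.map_cons, List.map_cons, List.cons.injEq, List.cons.injEq] at h4
    obtain ⟨rfl, rfl, rfl⟩ := h4
    have hmax := pairwise_of_max (F := (p :: q :: 𝓡).map mergeL)
      (M := ov (mergeL p) (mergeL q)) (fun z w R' hR' => h2 z w R' (h1.trans hR'))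
    rw [List.pairwise_map] at hmax
    have hI := h.perm h3.symm
    obtain ⟨h5, h6⟩ := hI.step hmax
    have hpw := hI.pw
    rw [List.pairwise_cons] at hpw
    have r1 := hpw.1 q (by simp)
    have hB : ov (mergeL p) (mergeL q) ≤ B := by
      rw [r1.1.eq]
      exact r1.1.le
    have hp := hI.ne p (by simp)
    have hq := hI.ne q (by simp)
    have hmp : mergeL p ≠ [] := hI.sf.1 _ (by simp)
    have hmq : mergeL q ≠ [] := hI.sf.1 _ (by simp)
    refine ⟨_, _, h5, ?_, ?_, ?_⟩
    · intro r hr
      rcases List.mem_cons.1 hr with rfl | hr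
      · refine NB.append (k := ov (mergeL p) (mergeL q)) hp hq (hn p (h3.mem_iff.1 (by simp)))
          (hn q (h3.mem_iff.1 (by simp))) r1.1.eq.symm ?_ ?_ ?_
        · intro i hi hi'
          exact lt_of_le_of_lt hB (hI.inn p (by simp) i hi hi')
        · intro i hi hi'
          exact lt_of_le_of_lt hB (hI.inn q (by simp) i hi hi')
        · rcases h0 with h0 | ⟨h0, h0'⟩
          · exact Or.inl h0
          · exact Or.inr ⟨(self_ge hp hmp).trans h0, (self_ge hq hmq).trans h0'⟩
      · exact hn r (h3.mem_iff.1 (by simp [hr]))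
    · rw [List.map_cons, h6]
    · have h7 := h3.flatten
      rw [List.flatten_cons, List.flatten_cons, ← List.append_assoc] at h7
      rw [List.flatten_cons]
      exact h7

theorem nb_single (s : List ℕ) : NB [s] := by
  intro a b ⟨c1, c2, _⟩
  simp only [List.length_singleton] at c2
  have ha : a = 0 := by omega
  have hb : b = 0 := by omega
  subst ha hb
  rw [lk_zero, lk_len [s] (by simp)]
  omega

theorem greedy_runI {F : List (List ℕ)} (hF : Sfree F) {F' : List (List ℕ)}
    (h : Relation.ReflTransGen GStepI F F') :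
    ∃ B 𝓟, Inv B 𝓟 ∧ (∀ p ∈ 𝓟, NB p) ∧ 𝓟.map mergeL = F' ∧ 𝓟.flatten.Perm F := by
  induction h with
  | refl =>
    refine ⟨_, _, inv_init hF, ?_, ?_, ?_⟩
    · intro p hp
      obtain ⟨s, -, rfl⟩ := List.mem_map.1 hp
      exact nb_single s
    · rw [List.map_map]
      conv_rhs => rw [← List.map_id F]
      exact List.map_congr_left fun s _ => rfl
    · rw [← List.flatMap_def, List.flatMap_singleton']
  | tail _ hs ih =>
    obtain ⟨B, 𝓟, h1, h2, rfl, h3⟩ := ih
    obtain ⟨B', 𝓠, h4, h5, h6, h7⟩ := inv_stepI h1 h2 hs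
    exact ⟨B', 𝓠, h4, h5, h6, h7.trans h3⟩

theorem greedy_orderI {F : List (List ℕ)} (hF : Sfree F) {t : List ℕ}
    (h : Relation.ReflTransGen GStepI F [t]) :
    ∃ P : List (List ℕ), P.Perm F ∧ P ≠ [] ∧ mergeL P = t ∧ GP P ∧ NB P := by
  obtain ⟨B, 𝓟, h1, h2, h3, h4⟩ := greedy_runI hF h
  rcases 𝓟 with _ | ⟨P, _ | ⟨Q, 𝓡⟩⟩
  · simp at h3
  · rw [List.map_cons, List.map_nil, List.cons.injEq] at h3
    refine ⟨P, ?_, h1.ne P (by simp), h3.1, h1.gp P (by simp), h2 P (by simp)⟩
    simpa using h4
  · simp at h3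

theorem self_le {x : List ℕ} {k : ℕ} (hx : x ≠ []) (h : SelfOverlapLE x k) : ov x x ≤ k := by
  obtain ⟨w, h1, h2, h3⟩ := ov_wit x x
  rw [← h3]
  refine h w h1 h2 ?_
  rw [h3]
  exact ov_lt_left x hx

theorem step_of_stepI {F F' : List (List ℕ)} (h : StepI F F') : Step F F' := by
  obtain ⟨x, y, R, k, h1, h2, h3, -, h5⟩ := h
  exact ⟨x, y, R, k, h1, h2, h3, h5⟩

theorem stepI_gstepI {F F' : List (List ℕ)} (hF : Sfree F) (h : StepI F F') : GStepI F F' := by
  obtain ⟨x, y, R, k, h1, h2, h3, h4, rfl⟩ := h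
  have e := not_infix_of_perm hF h1
  have ek := eq_ov e.1 e.2 h2
  subst ek
  have hmax : ∀ z w R', F.Perm (z :: w :: R') → ov z w ≤ ov x y := by
    intro z w R' hR'
    have e' := not_infix_of_perm hF hR'
    exact h3 z w R' _ hR' (isOverlap_ov e'.1 e'.2)
  have hm : mergeL [x, y] = x.take (x.length - ov x y) ++ y := by
    rw [spec_mergeL]
    rfl
  rw [← hm]
  refine ⟨x, y, R, h1, hmax, ?_, rfl⟩
  rcases h4 with h4 | ⟨h4, h5⟩
  · exact Or.inl h4
  · exact Or.inr ⟨self_le (hF.1 x (h1.mem_iff.2 (by simp))) h4,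
      self_le (hF.1 y (h1.mem_iff.2 (by simp))) h5⟩

theorem run_grunI {F F' : List (List ℕ)} (hF : Sfree F)
    (h : Relation.ReflTransGen StepI F F') : Relation.ReflTransGen GStepI F F' ∧ Sfree F' := by
  induction h with
  | refl => exact ⟨Relation.ReflTransGen.refl, hF⟩
  | tail _ hs ih =>
    exact ⟨ih.1.tail (stepI_gstepI ih.2 hs), (step_gstep ih.2 (step_of_stepI hs)).2⟩

/-- Every output of a run with isolated culprits is at most twice as long as the optimum. -/
theorem output_leI {S : List (List ℕ)} {t : List ℕ} (h : OutputI S t) :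
    Output S t ∧ IsSuperstring S t ∧ t.length ≤ 2 * opt S := by
  obtain ⟨F, hF, hrun⟩ := h
  have hout : Output S t := ⟨F, hF, Relation.ReflTransGen.mono (fun _ _ => step_of_stepI) _ _ hrun⟩
  refine ⟨hout, (output_le hout).1, ?_⟩
  by_cases hne : [] ∈ F
  · have h1 : ∀ s ∈ S, s = [] := fun s hs => (((hF.2 []).1 hne).2 s hs (List.nil_infix)).symm
    have h2 : ∀ s ∈ F, s = [] := fun s hs => h1 s ((hF.2 s).1 hs).1
    have h3 : F.length ≤ 1 := by
      rcases F with _ | ⟨a, _ | ⟨b, F⟩⟩
      · simp
      · simp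
      · exfalso
        have e1 := h2 a (by simp)
        have e2 := h2 b (by simp)
        have := hF.1
        rw [e1, e2] at this
        simp at this
    have h4 := run_single h3 (Relation.ReflTransGen.mono (fun _ _ => step_of_stepI) _ _ hrun)
    have h5 : t = [] := h2 t (by rw [h4]; simp)
    subst h5
    exact Nat.zero_le _
  · have hS := sfree_reduced hF hne
    obtain ⟨P, hP1, hP2, rfl, hP4, hP5⟩ := greedy_orderI hS (run_grunI hS hrun).1
    obtain ⟨T, hT1, hT2⟩ := exists_opt S
    rw [← hT2]
    refine two_bound (sfree_perm hS hP1.symm) hP2 hP4 hP5 ?_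
    intro s hs
    exact hT1 s ((hF.2 s).1 (hP1.mem_iff.1 hs)).1

end Vale.Agent.P333.H531.Iso
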